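import Vale.Agent.P028G.Main

/-! The weak inhomogeneous Duffin-Schaeffer conjecture for every real shift, under a mild
truncation of the approximating function or a mild extra divergence. -/

open Filter MeasureTheory

theorem Vale.Agent.Results.P028.AllShifts.result
    (γ : ℝ) (ψ : ℕ → ℝ) (hψ : ∀ q, 0 ≤ ψ q)
    (h : (¬ Summable fun q : ℕ => (Nat.totient q : ℝ) / q *
        min (ψ q) (Real.exp (-(Real.log (Real.log q)) ^ (40 : ℕ)))) ∨
      (¬ Summable fun q : ℕ =>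
        (Nat.totient q : ℝ) / q * ψ q / (Real.log (Real.log q)) ^ (12 : ℕ)) ∨
      (Irrational γ ∧ ¬ Liouville γ ∧ ∃ e : ℝ, 0 < e ∧
        ((¬ Summable fun q : ℕ => (Nat.totient q : ℝ) / q *
          min (ψ q) (Real.exp (-(Real.log (Real.log q)) ^ (1 + e)))) ∨
        ¬ Summable fun q : ℕ =>
          (Nat.totient q : ℝ) / q * ψ q / (Real.log (Real.log q)) ^ e))) :
    ∀ᵐ x : ℝ, Set.Infinite {q : ℕ | 0 < q ∧ ∃ a : ℤ, |(q : ℝ) * x - a - γ| < ψ q} := by
  have key : ∀ f : ℕ → ℝ, ∀ x : ℝ,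
      Set.Infinite {q : ℕ | 0 < q ∧ ∃ a : ℤ, |(q : ℝ) * x - a - γ| < min (ψ q) (f q)} →
      Set.Infinite {q : ℕ | 0 < q ∧ ∃ a : ℤ, |(q : ℝ) * x - a - γ| < ψ q} := by
    intro f x hx
    refine hx.mono ?_
    rintro q ⟨hq, a, ha⟩
    exact ⟨hq, a, ha.trans_le (min_le_left _ _)⟩
  rcases h with h | h | ⟨hirr, hL, e, he, h | h⟩
  · exact (Vale.Agent.P028G.mainA2 γ _ (fun q => le_min (hψ q) (Real.exp_pos _).le) h
      (Eventually.of_forall fun q => min_le_right _ _)).mono (key _)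
  · exact Vale.Agent.P028G.mainB2 γ ψ hψ h
  · exact (Vale.Agent.P028.mainA γ hirr hL _ (fun q => le_min (hψ q) (Real.exp_pos _).le) e he h
      (Eventually.of_forall fun q => min_le_right _ _)).mono (key _)
  · exact Vale.Agent.P028.mainB γ hirr hL ψ hψ e he h
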