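import Vale.Agent.P028.Main

/-! The weak inhomogeneous Duffin-Schaeffer conjecture for non-Liouville shifts, under a mild
upper bound on the approximating function or a mild extra divergence. -/

open Filter MeasureTheory

theorem Vale.Agent.Results.P028.NonLiouville.result
    (γ : ℝ) (hirr : Irrational γ) (hL : ¬ Liouville γ)
    (ψ : ℕ → ℝ) (hψ : ∀ q, 0 ≤ ψ q) (e : ℝ) (he : 0 < e)
    (h : ((¬ Summable fun q : ℕ => (Nat.totient q : ℝ) / q * ψ q) ∧
        ∀ᶠ q : ℕ in atTop, ψ q ≤ Real.exp (-(Real.log (Real.log q)) ^ (1 + e))) ∨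
      ¬ Summable fun q : ℕ => (Nat.totient q : ℝ) / q * ψ q / (Real.log (Real.log q)) ^ e) :
    ∀ᵐ x : ℝ, Set.Infinite {q : ℕ | 0 < q ∧ ∃ a : ℤ, |(q : ℝ) * x - a - γ| < ψ q} := by
  rcases h with h | h
  · exact Vale.Agent.P028.mainA γ hirr hL ψ hψ e he h.1 h.2
  · exact Vale.Agent.P028.mainB γ hirr hL ψ hψ e he h
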